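import Vale.Agent.P074.General.Unique

namespace Vale.Agent.Results.P074.EveryBodyAllMaps

open Vale.Agent.P074 MeasureTheory
open scoped ENNReal NNReal

/-- For every dimension `d ≥ 2`, every compact source body `K` with nonempty interior (convex or
not), every compact target region `Y` with nonempty interior, every exponent `α > 1/3` and every
constant `C`, there are probability measures `μ, ν` on `Y`, both admitting optimal transport maps
from the uniform measure on `K`, such that every optimal map `T` for `μ` and every optimal map `S`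
for `ν` satisfy `‖T - S‖_{L²} > C W₂(μ,ν)^α`. -/
theorem result (d : ℕ) (hd : 2 ≤ d)
    (K : Set (EuclideanSpace ℝ (Fin d))) (hK : IsCompact K) (hKi : (interior K).Nonempty)
    (Y : Set (EuclideanSpace ℝ (Fin d))) (hY : IsCompact Y) (hYi : (interior Y).Nonempty)
    (α : ℝ) (hα : 1 / 3 < α) (C : ℝ≥0) :
    ∃ μ ν : Measure (EuclideanSpace ℝ (Fin d)),
      IsProbabilityMeasure μ ∧ IsProbabilityMeasure ν ∧ μ Yᶜ = 0 ∧ ν Yᶜ = 0 ∧
      (∃ T, IsOTMap (unif K) μ T) ∧ (∃ S, IsOTMap (unif K) ν S) ∧
      ∀ T S : EuclideanSpace ℝ (Fin d) → EuclideanSpace ℝ (Fin d),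
        IsOTMap (unif K) μ T → IsOTMap (unif K) ν S →
        (C : ℝ≥0∞) * W2 μ ν ^ α < L2dist (unif K) T S := by
  obtain ⟨n, rfl⟩ : ∃ n, d = n + 2 := ⟨d - 2, by omega⟩
  exact general_bad_pair_strong K hK hKi Y hY.measurableSet hYi α hα C

end Vale.Agent.Results.P074.EveryBodyAllMaps
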