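import Vale.Agent.P074.Main
import Vale.Agent.P074.Third.Main

namespace Vale.Agent.Results.P074.ExactThird

open Vale.Agent.P074

/-- In every dimension `d ≥ 2`: the exponent `α = 1/3` is admissible, no exponent `α > 1/3` is
admissible (in particular `α = 1/2` is not), hence `1/3` is the greatest admissible exponent:
the supremum `α*_d` of the admissible exponents in `(0,1]` equals `1/3` and it is attained. -/
theorem result (d : ℕ) (hd : 2 ≤ d) :
    Admissible d (1 / 3) ∧ (∀ α : ℝ, 1 / 3 < α → ¬ Admissible d α) ∧ ¬ Admissible d (1 / 2) ∧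
      IsGreatest {α : ℝ | 0 < α ∧ α ≤ 1 ∧ Admissible d α} (1 / 3) ∧
      sSup {α : ℝ | 0 < α ∧ α ≤ 1 ∧ Admissible d α} = 1 / 3 := by
  have hq : Admissible d (1 / 3) := Third.admissible_third (by omega)
  have hg : IsGreatest {α : ℝ | 0 < α ∧ α ≤ 1 ∧ Admissible d α} (1 / 3) := by
    refine ⟨⟨by norm_num, by norm_num, hq⟩, fun α hα => ?_⟩
    by_contra hlt
    exact not_admissible d hd α (not_le.mp hlt) hα.2.2
  exact ⟨hq, fun α hα => not_admissible d hd α hα, not_admissible d hd _ (by norm_num), hg,
    hg.csSup_eq⟩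

end Vale.Agent.Results.P074.ExactThird
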