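import Vale.Agent.P074.Main
import Vale.Agent.P074.Lower.Main

namespace Vale.Agent.Results.P074.QuarterToThird

open Vale.Agent.P074

/-- In every dimension `d ≥ 2`: the exponent `α = 1/4` is admissible, no exponent `α > 1/3` is
admissible (in particular `α = 1/2` is not), and hence the supremum `α*_d` of the admissible
exponents in `(0,1]` satisfies `1/4 ≤ α*_d ≤ 1/3`. -/
theorem result (d : ℕ) (hd : 2 ≤ d) :
    Admissible d (1 / 4) ∧ (∀ α : ℝ, 1 / 3 < α → ¬ Admissible d α) ∧ ¬ Admissible d (1 / 2) ∧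
      1 / 4 ≤ sSup {α : ℝ | 0 < α ∧ α ≤ 1 ∧ Admissible d α} ∧
      sSup {α : ℝ | 0 < α ∧ α ≤ 1 ∧ Admissible d α} ≤ 1 / 3 := by
  have hq : Admissible d (1 / 4) := Lower.admissible_quarter (by omega)
  refine ⟨hq, fun α hα => not_admissible d hd α hα, not_admissible d hd _ (by norm_num), ?_, ?_⟩
  · refine le_csSup ⟨1, fun α hα => hα.2.1⟩ ⟨by norm_num, by norm_num, hq⟩
  · refine Real.sSup_le (fun α hα => ?_) (by norm_num)
    by_contra hlt
    exact not_admissible d hd α (not_le.mp hlt) hα.2.2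

end Vale.Agent.Results.P074.QuarterToThird
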