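import Vale.Agent.P074.General.Unique
import Vale.Agent.P074.Third.Main

namespace Vale.Agent.Results.P074.SharpEveryBody

open Vale.Agent.P074 MeasureTheory
open scoped ENNReal NNReal

/-- Let `d ≥ 2`, let `K` be a compact convex body with nonempty interior, `ρ` the uniform measure
on `K`, and `Y` a nonempty compact set.
(1) There is a finite `C` with `‖T - S‖_{L²(ρ)} ≤ C W₂(μ,ν)^{1/3}` for all probability measures
`μ, ν` on `Y` and all optimal maps `T` for `μ`, `S` for `ν`.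
(2) If `Y` has nonempty interior, the exponent `1/3` cannot be improved for this pair `(K, Y)`:
for every `α > 1/3` and every finite `C` there are probability measures `μ, ν` on `Y`, both
admitting optimal maps, such that all optimal maps `T`, `S` satisfy
`‖T - S‖_{L²(ρ)} > C W₂(μ,ν)^α`. -/
theorem result (d : ℕ) (hd : 2 ≤ d)
    (K : Set (EuclideanSpace ℝ (Fin d))) (hK : IsCompact K) (hKc : Convex ℝ K)
    (hKi : (interior K).Nonempty)
    (Y : Set (EuclideanSpace ℝ (Fin d))) (hY : IsCompact Y) (hYn : Y.Nonempty) :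
    (∃ C : ℝ≥0, ∀ μ ν : Measure (EuclideanSpace ℝ (Fin d)),
      IsProbabilityMeasure μ → IsProbabilityMeasure ν → μ Yᶜ = 0 → ν Yᶜ = 0 →
      ∀ T S : EuclideanSpace ℝ (Fin d) → EuclideanSpace ℝ (Fin d),
        IsOTMap (unif K) μ T → IsOTMap (unif K) ν S →
        L2dist (unif K) T S ≤ (C : ℝ≥0∞) * W2 μ ν ^ (1 / 3 : ℝ)) ∧
    ((interior Y).Nonempty → ∀ α : ℝ, 1 / 3 < α → ∀ C : ℝ≥0,
      ∃ μ ν : Measure (EuclideanSpace ℝ (Fin d)),
        IsProbabilityMeasure μ ∧ IsProbabilityMeasure ν ∧ μ Yᶜ = 0 ∧ ν Yᶜ = 0 ∧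
        (∃ T, IsOTMap (unif K) μ T) ∧ (∃ S, IsOTMap (unif K) ν S) ∧
        ∀ T S : EuclideanSpace ℝ (Fin d) → EuclideanSpace ℝ (Fin d),
          IsOTMap (unif K) μ T → IsOTMap (unif K) ν S →
          (C : ℝ≥0∞) * W2 μ ν ^ α < L2dist (unif K) T S) := by
  refine ⟨Third.admissible_third (by omega) K hK hKc hKi Y hY hYn, fun hYi α hα C => ?_⟩
  obtain ⟨n, rfl⟩ : ∃ n, d = n + 2 := ⟨d - 2, by omega⟩
  exact general_bad_pair_strong K hK hKi Y hY.measurableSet hYi α hα C

end Vale.Agent.Results.P074.SharpEveryBody
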